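import Vale.Agent.P199.BL9
import Vale.Agent.P199.Main

/-!
# P199: Kurosh's problem for division rings has a negative answer

(1) There is a division ring `D`, algebraic over its center, with a finite subset `S` such that the subring
generated by the center and `S` is infinite-dimensional over the center.
(2) There are a field `k` and a division `k`-algebra `D` which is algebraic over `k`, finitely generated as a
`k`-algebra and infinite-dimensional over `k`.
-/

namespace Vale.Agent.Results.P199.Kurosh

theorem result :
    (∃ (D : Type) (_ : DivisionRing D),
      (∀ a : D, IsAlgebraic (Subring.center D) a) ∧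
      ∃ S : Finset D, ¬ Module.Finite (Subring.center D)
        (Algebra.adjoin (Subring.center D) (S : Set D))) ∧
    (∃ (k D : Type) (_ : Field k) (_ : DivisionRing D) (_ : Algebra k D),
      Algebra.IsAlgebraic k D ∧ Algebra.FiniteType k D ∧ ¬ Module.Finite k D) :=
  Vale.P199.kurosh_of_keyLemma Vale.P199.keyLemma

end Vale.Agent.Results.P199.Kurosh
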